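import Mathlib

/-!
# P299 / H908: jets, Schwarz lemma and counting (for Siegel's lemma)
-/

set_option linter.all false

open Metric Filter Topology Asymptotics

noncomputable section

namespace Vale.Agent.P299.H908

section schwarz

variable {E : Type*} [NormedAddCommGroup E] [NormedSpace ℂ E]

/-- Schwarz lemma for functions vanishing to order `h` at the centre of a ball. -/
theorem norm_le_of_iteratedFDeriv {h : ℕ} {f : E → ℂ} {c : E} {R M : ℝ}
    (hf : AnalyticOnNhd ℂ f (ball c R)) (hM : ∀ z ∈ ball c R, ‖f z‖ ≤ M)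
    (hj : ∀ k < h, ∀ v : Fin k → E, iteratedFDeriv ℂ k f c v = 0) :
    ∀ z ∈ ball c R, ‖f z‖ ≤ M * (dist z c / R) ^ h := by
  intro z hz
  have hR : 0 < R := nonempty_ball.mp ⟨_, hz⟩
  have hc : c ∈ ball c R := mem_ball_self hR
  rcases h with _ | h
  · simpa using hM z hz
  have hfc : f c = 0 := by
    have := hj 0 (Nat.succ_pos _) (fun i => i.elim0)
    simpa [iteratedFDeriv_zero_apply] using this
  obtain ⟨p, r, hp⟩ := hf c hc
  have h1 : (fun y : E => f (c + y) - p.partialSum (h + 1) y) =O[𝓝 0] fun y => ‖y‖ ^ (h + 1) :=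
    hp.hasFPowerSeriesAt.isBigO_sub_partialSum_pow (h + 1)
  have h2 : ∀ y, p.partialSum (h + 1) y = 0 := by
    intro y
    unfold FormalMultilinearSeries.partialSum
    refine Finset.sum_eq_zero fun k hk => ?_
    have h3 := hp.factorial_smul y k
    rw [hj k (Finset.mem_range.1 hk)] at h3
    have h4 : ((k.factorial : ℕ) : ℂ) ≠ 0 := by exact_mod_cast k.factorial_ne_zero
    rw [nsmul_eq_mul] at h3
    exact (mul_eq_zero.1 h3).resolve_left h4
  have h3 : (fun y : E => f (c + y)) =O[𝓝 0] fun y => ‖y‖ ^ (h + 1) := by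
    simpa [h2] using h1
  have h4 : (fun y : E => f (c + y)) =o[𝓝 0] fun y => ‖y‖ ^ h := by
    refine h3.trans_isLittleO ?_
    have h5 : (fun y : E => ‖y‖ ^ h * ‖y‖) =o[𝓝 0] fun y => ‖y‖ ^ h * 1 := by
      refine (isBigO_refl _ _).mul_isLittleO ?_
      rw [isLittleO_one_iff]
      exact tendsto_norm_zero
    simpa [pow_succ] using h5
  have h5 : (fun w : E => f w - f c) =o[𝓝 c] fun w => ‖w - c‖ ^ h := by
    have h6 : Tendsto (fun w : E => w - c) (𝓝 c) (𝓝 0) := by
      have : Tendsto (fun w : E => w - c) (𝓝 c) (𝓝 (c - c)) := (continuous_id.sub continuous_const).tendsto c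
      simpa using this
    have h7 := h4.comp_tendsto h6
    refine (h7.congr (fun w => ?_) (fun w => rfl))
    simp [hfc]
  have h6 := Complex.dist_le_mul_div_pow_of_mapsTo_ball_of_isLittleO (R₂ := M)
    (fun w hw => (hf w hw).differentiableAt.differentiableWithinAt)
    (fun w hw => by
      rw [mem_closedBall, hfc, dist_zero_right]
      exact hM w hw) h5 hz
  rwa [hfc, dist_zero_right] at h6

end schwarz

section count

/-- number of values `i` of `J` -/
def cnt {n k : ℕ} (J : Fin k → Fin n) (i : Fin n) : ℕ := Fintype.card {a // J a = i}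

theorem sum_cnt {n k : ℕ} (J : Fin k → Fin n) : ∑ i, cnt J i = k := by
  unfold cnt
  rw [← Fintype.card_sigma, Fintype.card_congr (Equiv.sigmaFiberEquiv J), Fintype.card_fin]

theorem exists_perm_of_cnt {n k : ℕ} {J J' : Fin k → Fin n} (h : cnt J = cnt J') :
    ∃ σ : Equiv.Perm (Fin k), J' ∘ σ = J := by
  have h1 : ∀ i, Nonempty ({a // J a = i} ≃ {a // J' a = i}) := fun i =>
    ⟨Fintype.equivOfCardEq (congrFun h i)⟩
  exact ⟨Equiv.ofFiberEquiv fun i => (h1 i).some, funext fun a =>
    Equiv.ofFiberEquiv_map (fun i => (h1 i).some) a⟩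

open Classical in
/-- a multi-index derivative: for `α : Fin n → Fin h`, the length and the directions of a
representative with counts `α`. -/
def rep {n h : ℕ} (α : Fin n → Fin h) : Σ k : ℕ, Fin k → Fin n :=
  if H : ∃ s : Σ k : ℕ, Fin k → Fin n, cnt s.2 = fun i => (α i : ℕ) then H.choose
  else ⟨0, fun i => i.elim0⟩

theorem rep_spec {n h k : ℕ} (J : Fin k → Fin n) (hk : k < h) :
    ∃ α : Fin n → Fin h, ∃ J' : Fin k → Fin n, rep α = ⟨k, J'⟩ ∧ cnt J' = cnt J := by
  have h1 : ∀ i, cnt J i < h := by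
    intro i
    refine lt_of_le_of_lt ?_ hk
    calc cnt J i ≤ ∑ i, cnt J i := Finset.single_le_sum (fun _ _ => Nat.zero_le _) (Finset.mem_univ i)
      _ = k := sum_cnt J
  let α : Fin n → Fin h := fun i => ⟨cnt J i, h1 i⟩
  have H : ∃ s : Σ k : ℕ, Fin k → Fin n, cnt s.2 = fun i => (α i : ℕ) := ⟨⟨k, J⟩, rfl⟩
  have h2 : rep α = H.choose := by
    unfold rep
    rw [dif_pos H]
  have h3 := H.choose_spec
  rw [← h2] at h3
  rcases hr : rep α with ⟨k', J'⟩
  rw [hr] at h3
  have h4 : k' = k := by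
    have := sum_cnt J'
    rw [← this, ← sum_cnt J]
    exact Finset.sum_congr rfl fun i _ => congrFun h3 i
  subst h4
  exact ⟨α, J', hr, h3⟩

variable {n : ℕ}

/-- the jet functional -/
def jet {h : ℕ} (α : Fin n → Fin h) (c : Fin n → ℂ) (f : (Fin n → ℂ) → ℂ) : ℂ :=
  iteratedFDeriv ℂ (rep α).1 f c (fun a => Pi.single ((rep α).2 a) 1)

/-- If all `h^n` jet functionals vanish then the function vanishes to order `h`. -/
theorem iteratedFDeriv_eq_zero_of_jet {h : ℕ} {f : (Fin n → ℂ) → ℂ} {c : Fin n → ℂ}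
    (hf : AnalyticAt ℂ f c) (hj : ∀ α : Fin n → Fin h, jet α c f = 0) :
    ∀ k < h, ∀ v : Fin k → (Fin n → ℂ), iteratedFDeriv ℂ k f c v = 0 := by
  intro k hk v
  have h1 : ∀ J : Fin k → Fin n, iteratedFDeriv ℂ k f c (fun a => Pi.single (J a) 1) = 0 := by
    intro J
    obtain ⟨α, J', h1, h2⟩ := rep_spec J hk
    obtain ⟨σ, hσ⟩ := exists_perm_of_cnt h2.symm
    have h3 := hj α
    unfold jet at h3
    rw [h1] at h3
    have h4 := (hf.contDiffAt (n := ⊤)).iteratedFDeriv_comp_perm
      (fun a : Fin k => (Pi.single (J' a) 1 : Fin n → ℂ)) σ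
    rw [← h3, ← h4]
    congr 1
    funext a
    simp only [Function.comp]
    rw [← hσ]
    rfl
  have h2 : iteratedFDeriv ℂ k f c = 0 := by
    apply ContinuousMultilinearMap.toMultilinearMap_injective
    refine Module.Basis.ext_multilinear (fun _ => Pi.basisFun ℂ (Fin n)) fun J => ?_
    simpa [Pi.basisFun_apply] using h1 J
  rw [h2]
  rfl

theorem jet_sum {h : ℕ} (α : Fin n → Fin h) (c : Fin n → ℂ) {ι : Type*} (s : Finset ι)
    (a : ι → ℂ) (f : ι → (Fin n → ℂ) → ℂ) (hf : ∀ i ∈ s, AnalyticAt ℂ (f i) c) :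
    jet α c (fun z => ∑ i ∈ s, a i * f i z) = ∑ i ∈ s, a i * jet α c (f i) := by
  classical
  induction s using Finset.induction_on with
  | empty =>
    simp only [Finset.sum_empty]
    unfold jet
    rw [show (fun _ : Fin n → ℂ => (0 : ℂ)) = 0 from rfl]
    simp
  | insert i s hi ih =>
    have h1 : AnalyticAt ℂ (fun z => a i * f i z) c :=
      analyticAt_const.mul (hf i (Finset.mem_insert_self _ _))
    have h2 : AnalyticAt ℂ (fun z => ∑ j ∈ s, a j * f j z) c := by
      refine Finset.analyticAt_fun_sum _ fun j hj => ?_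
      exact analyticAt_const.mul (hf j (Finset.mem_insert_of_mem hj))
    have h3 : (fun z => ∑ j ∈ insert i s, a j * f j z) =
        (fun z => a i * f i z) + fun z => ∑ j ∈ s, a j * f j z := by
      funext z
      simp [Finset.sum_insert hi]
    rw [h3, Finset.sum_insert hi]
    unfold jet at ih ⊢
    rw [iteratedFDeriv_add_apply (h1.contDiffAt) (h2.contDiffAt),
      ContinuousMultilinearMap.add_apply, ih fun j hj => hf j (Finset.mem_insert_of_mem hj)]
    congr 1
    have h4 : (fun z => a i * f i z) = a i • f i := rfl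
    rw [h4, iteratedFDeriv_const_smul_apply (hf i (Finset.mem_insert_self _ _)).contDiffAt]
    rfl

end count

end Vale.Agent.P299.H908
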